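import Crest.Agent.H3Perm.Trop

set_option autoImplicit false

namespace Crest.Agent.H3Perm

open Filter Real

/-- extension by zero along an embedding -/
noncomputable def ext {k d : ℕ} (σ : Fin k ↪ Fin d) (v : Fin k → ℝ) : Fin d → ℝ :=
  fun j => ∑ i, if σ i = j then v i else 0

theorem ext_apply {k d : ℕ} (σ : Fin k ↪ Fin d) (v : Fin k → ℝ) (i : Fin k) :
    ext σ v (σ i) = v i := by
  unfold ext
  rw [Finset.sum_eq_single i]
  · simp
  · intro b _ hb
    rw [if_neg (fun h => hb (σ.injective h))]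
  · simp

theorem ext_of_not {k d : ℕ} (σ : Fin k ↪ Fin d) (v : Fin k → ℝ) {j : Fin d}
    (hj : ∀ i, σ i ≠ j) : ext σ v j = 0 := by
  unfold ext
  exact Finset.sum_eq_zero fun i _ => if_neg (hj i)

theorem sum_ext {k d : ℕ} (σ : Fin k ↪ Fin d) (v : Fin k → ℝ) (x : Fin d → ℝ) :
    ∑ j, ext σ v j * x j = ∑ i, v i * x (σ i) := by
  unfold ext
  simp only [Finset.sum_mul]
  rw [Finset.sum_comm]
  refine Finset.sum_congr rfl fun i _ => ?_
  rw [Finset.sum_eq_single (σ i)]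
  · simp
  · intro b _ hb
    rw [if_neg (Ne.symm hb), zero_mul]
  · simp

theorem cut (d k : ℕ) (r : (Fin d → ℝ) → ℝ) (hr : ∀ v, 0 < r v) (L lam : ℝ) (h : L ≤ lam) :
    ∃ (Λ : Finset (Fin k → ℝ)) (c : (Fin k → ℝ) → ℝ → ℝ) (ρ β C m : ℝ), 0 < ρ ∧ 0 < m ∧ m ≤ 1 ∧
    Basic L lam Λ c β C ∧ (∀ v ∈ Λ, ∀ σ : Fin k ↪ Fin d, m ≤ r (ext σ v)) ∧
    ∀ᶠ A in atTop, ∀ (x : Fin d → ℝ) (η : ℝ),
      (∀ w ∈ Λ, ∀ σ : Fin k ↪ Fin d, ∑ i, w i * x (σ i) ≤ c w A + η) →
      ∀ v ∈ Λ, ∀ σ : Fin k ↪ Fin d, ∑ i, v i * x (σ i) = c v A + η →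
        (∀ i, exp (A * L) ≤ x (σ i)) → (∀ i, x (σ i) ≤ exp (A * (lam + ρ))) →
        ∀ i, |log (x (σ i)) - A * v i| ≤ A * r (ext σ v) := by
  have h1 : ∀ v : Fin k → ℝ, ∃ m, 0 < m ∧ ∀ σ : Fin k ↪ Fin d, m ≤ r (ext σ v) := by
    intro v
    obtain ⟨m, hm, h⟩ := exists_pos_le_finset (Finset.univ : Finset (Fin k ↪ Fin d))
      (fun σ => r (ext σ v)) fun σ _ => hr _
    exact ⟨m, hm, fun σ => h σ (Finset.mem_univ _)⟩
  choose r' hr' hr'le using h1
  obtain ⟨Λ, c, ρ, β, C, hρ, hB, h3⟩ := P_sym k r' hr' L lam h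
  obtain ⟨m, hm, hmle⟩ := exists_pos_le_finset Λ r' fun v _ => hr' v
  refine ⟨Λ, c, ρ, β, C, min m 1, hρ, lt_min hm one_pos, min_le_right _ _, hB,
    fun v hv σ => (min_le_left _ _).trans ((hmle v hv).trans (hr'le v σ)), ?_⟩
  filter_upwards [h3, eventually_ge_atTop 0] with A hA hA0 x η hcon v hv σ hact hlo hup i
  refine (hA (fun i => x (σ i)) hlo hup v hv (fun w hw q => ?_) i).trans
    (mul_le_mul_of_nonneg_left (hr'le v σ) hA0)
  have := hcon w hw (q.toEmbedding.trans σ)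
  simp only [Function.Embedding.trans_apply, Equiv.toEmbedding_apply] at this
  linarith

theorem ev_scale {p : ℝ → Prop} (h : ∀ᶠ A in atTop, p A) {s : ℝ} (hs : 0 < s) :
    ∀ᶠ A in atTop, p (A * s) :=
  (tendsto_id.atTop_mul_const hs).eventually h

theorem tropical (d : ℕ) (hd : 1 ≤ d) (r : (Fin d → ℝ) → ℝ) (hr : ∀ v, 0 < r v) :
    ∃ (𝒞 : Set ((Fin d → ℝ) × (ℝ → ℝ))) (s₀ : ℝ), 𝒞.Finite ∧ 0 < s₀ ∧
      (∀ p ∈ 𝒞, Continuous p.2) ∧
      (∀ x : Fin d → ℝ, (∀ j, 0 < x j) → ∀ᶠ A in atTop, ∀ p ∈ 𝒞, ∑ j, p.1 j * x j < p.2 A) ∧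
      ∀ᶠ A in atTop, ∀ x : Fin d → ℝ, (∀ j, 0 < x j) → (∀ p ∈ 𝒞, ∑ j, p.1 j * x j ≤ p.2 A) →
        (∀ j, exp (-(2 * A)) ≤ x j ∧ x j ≤ exp (2 * A)) ∧
        ∀ p ∈ 𝒞, ∑ j, p.1 j * x j = p.2 A →
          ∃ s, s₀ ≤ s ∧ ∀ j, |log (x j) - A * s * p.1 j| ≤ A * s * r p.1 := by
  have hlow := fun (n : ℕ) (s : ℝ) => cut d (n + 1) r hr (-(|s|⁻¹ + 1)) (-1) (by
    have : 0 ≤ |s|⁻¹ := by positivity
    linarith)
  choose Λ c ρ β C m hρ hm hm1 hB hmr hev using hlow
  let t : ℕ → ℝ := fun n => Nat.rec 1 (fun n s => s * m n s / 2) n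
  have t0 : t 0 = 1 := rfl
  have tS : ∀ n, t (n + 1) = t n * m n (t n) / 2 := fun n => rfl
  have tpos : ∀ n, 0 < t n := by
    intro n
    induction n with
    | zero => rw [t0]; exact one_pos
    | succ n ih => rw [tS]; have := hm n (t n); positivity
  have tlt : ∀ n, t (n + 1) < t n * m n (t n) := fun n => by
    rw [tS]; have := mul_pos (tpos n) (hm n (t n)); linarith
  have tanti : Antitone t := antitone_nat_of_succ_le fun n => by
    have h1 := tlt n
    have h2 := mul_le_mul_of_nonneg_left (hm1 n (t n)) (tpos n).le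
    linarith
  obtain ⟨Λu, cu, ρu, βu, Cu, mu, hρu, -, -, hBu, -, hevu⟩ :=
    cut d d r hr (-(|t d|⁻¹ + 1)) 1 (by
      have : 0 ≤ |t d|⁻¹ := by positivity
      linarith)
  let lowc : (n : ℕ) → (Fin (n + 1) → ℝ) × (Fin (n + 1) ↪ Fin d) → (Fin d → ℝ) × (ℝ → ℝ) :=
    fun n q => (ext q.2 q.1, fun A => c n (t n) q.1 (A * t n) + -exp (A * t n * (-1)))
  let upc : (Fin d → ℝ) × (Fin d ↪ Fin d) → (Fin d → ℝ) × (ℝ → ℝ) :=
    fun q => (ext q.2 q.1, fun A => cu q.1 (A * t d) + exp (A * t d * 1))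
  let 𝒞 : Set ((Fin d → ℝ) × (ℝ → ℝ)) :=
    (⋃ n ∈ Set.Iio d, lowc n '' ((Λ n (t n) : Set _) ×ˢ Set.univ)) ∪
      upc '' ((Λu : Set _) ×ˢ Set.univ)
  have hmem : ∀ p ∈ 𝒞, (∃ n, n < d ∧ ∃ v ∈ Λ n (t n), ∃ σ, p = lowc n (v, σ)) ∨
      ∃ v ∈ Λu, ∃ σ, p = upc (v, σ) := by
    rintro p (hp | ⟨⟨v, σ⟩, ⟨hv, -⟩, rfl⟩)
    · simp only [Set.mem_iUnion] at hp
      obtain ⟨n, hn, ⟨v, σ⟩, ⟨hv, -⟩, rfl⟩ := hp
      exact Or.inl ⟨n, hn, v, hv, σ, rfl⟩
    · exact Or.inr ⟨v, hv, σ, rfl⟩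
  have hmem1 : ∀ n, n < d → ∀ v ∈ Λ n (t n), ∀ σ, lowc n (v, σ) ∈ 𝒞 := by
    intro n hn v hv σ
    left
    simp only [Set.mem_iUnion]
    exact ⟨n, hn, (v, σ), ⟨hv, trivial⟩, rfl⟩
  have hmem2 : ∀ v ∈ Λu, ∀ σ, upc (v, σ) ∈ 𝒞 := fun v hv σ =>
    Or.inr ⟨(v, σ), ⟨hv, trivial⟩, rfl⟩
  have hfin : 𝒞.Finite := by
    refine Set.Finite.union ((Set.finite_Iio d).biUnion fun n _ => Set.Finite.image _ ?_)
      (Set.Finite.image _ ?_)
    · exact (Finset.finite_toSet _).prod Set.finite_univ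
    · exact (Finset.finite_toSet _).prod Set.finite_univ
  refine ⟨𝒞, t d, hfin, tpos d, fun p hp => ?_, fun x hx => ?_, ?_⟩
  · rcases hmem p hp with ⟨n, -, v, hv, σ, rfl⟩ | ⟨v, hv, σ, rfl⟩
    · have := ((hB n (t n)).2.2.1 v hv).2.2.1
      simp only [lowc]; fun_prop
    · have := (hBu.2.2.1 v hv).2.2.1
      simp only [upc]; fun_prop
  · rw [hfin.eventually_all]
    intro p hp
    rcases hmem p hp with ⟨n, -, v, hv, σ, rfl⟩ | ⟨v, hv, σ, rfl⟩
    · obtain ⟨-, h2, -, h4⟩ := (hB n (t n)).2.2.1 v hv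
      have hneg : 0 < -∑ i, v i * x (σ i) := by
        rw [← Finset.sum_neg_distrib]
        refine Finset.sum_pos (fun i _ => ?_) Finset.univ_nonempty
        have := (h2 i).2
        have := hx (σ i)
        nlinarith
      filter_upwards [ev_scale (ev_exp (show (-1 : ℝ) < 0 by norm_num) 2 hneg) (tpos n)] with A hA
      simp only [lowc, sum_ext]
      have := h4 (A * t n)
      have := exp_pos (A * t n * (-1))
      simp only [mul_zero, exp_zero, mul_one] at hA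
      linarith
    · obtain ⟨-, -, -, h4⟩ := hBu.2.2.1 v hv
      filter_upwards [ev_scale (ev_exp (show (0 : ℝ) < 1 by norm_num)
        (∑ i, v i * x (σ i) + 1) one_pos) (tpos d)] with A hA
      simp only [upc, sum_ext]
      have := h4 (A * t d)
      simp only [mul_zero, exp_zero, mul_one, one_mul] at hA ⊢
      linarith
  have E1 : ∀ᶠ A in atTop, ∀ n ∈ Set.Iio d,
      C n (t n) * exp (A * t n * β n (t n)) ≤ 1 / 2 * exp (A * t n * (-1)) :=
    (Set.finite_Iio d).eventually_all.2 fun n _ =>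
      ev_scale (ev_exp (hB n (t n)).1 _ (by norm_num)) (tpos n)
  have E2 : ∀ᶠ A in atTop, Cu * exp (A * t d * βu) ≤ 1 * exp (A * t d * 1) :=
    ev_scale (ev_exp hBu.1 _ one_pos) (tpos d)
  have E3 : ∀ᶠ A in atTop, 2 * exp (A * t d * 1) ≤ 1 * exp (A * t d * (1 + ρu)) :=
    ev_scale (ev_exp (by linarith) _ one_pos) (tpos d)
  have E4 : ∀ᶠ A in atTop, 2 * exp (A * 0) ≤ 1 * exp (A * t d) := ev_exp (tpos d) _ one_pos
  have E5 : ∀ᶠ A in atTop, ∀ n ∈ Set.Iio d,
      (4 * (n + 2 : ℝ)) * exp (A * (-(t n * m n (t n)))) ≤ 1 * exp (A * (-t (n + 1))) :=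
    (Set.finite_Iio d).eventually_all.2 fun n _ => ev_exp (neg_lt_neg (tlt n)) _ one_pos
  have E6 : ∀ᶠ A in atTop, ∀ n ∈ Set.Iio d,
      2 * exp (A * t (n + 1)) ≤ 1 * exp (A * (t n * m n (t n))) :=
    (Set.finite_Iio d).eventually_all.2 fun n _ => ev_exp (tlt n) _ one_pos
  have E7 := (Set.finite_Iio d).eventually_all.2 fun n (_ : n ∈ Set.Iio d) =>
    ev_scale (hev n (t n)) (tpos n)
  have E8 := ev_scale hevu (tpos d)
  filter_upwards [E1, E2, E3, E4, E5, E6, E7, E8, eventually_ge_atTop 0]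
    with A e1 e2 e3 e4 e5 e6 e7 e8 hA0 x hx hcon
  have hAt : ∀ n, 0 ≤ A * t n := fun n => mul_nonneg hA0 (tpos n).le
  have e4' : ∀ n, n ≤ d → 2 ≤ exp (A * t n) := fun n hn => by
    simp only [mul_zero, exp_zero, mul_one, one_mul] at e4
    exact e4.trans (exp_le_exp.2 (mul_le_mul_of_nonneg_left (tanti hn) hA0))
  have hlc : ∀ n, n < d → ∀ w ∈ Λ n (t n), ∀ σ : Fin (n + 1) ↪ Fin d,
      ∑ i, w i * x (σ i) ≤ c n (t n) w (A * t n) + -exp (A * t n * (-1)) := by
    intro n hn w hw σ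
    have := hcon _ (hmem1 n hn w hw σ)
    simpa only [lowc, sum_ext] using this
  have huc : ∀ w ∈ Λu, ∀ σ : Fin d ↪ Fin d,
      ∑ i, w i * x (σ i) ≤ cu w (A * t d) + exp (A * t d * 1) := by
    intro w hw σ
    have := hcon _ (hmem2 w hw σ)
    simpa only [upc, sum_ext] using this
  have F1 : ∀ n, n < d → ∀ σ : Fin (n + 1) ↪ Fin d,
      ∃ i, exp (A * t n * (-1)) / (2 * (n + 1 : ℝ)) ≤ x (σ i) := by
    intro n hn σ
    have h1 := hlc n hn _ (hB n (t n)).2.2.2.2.1 σ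
    have h2 := (hB n (t n)).2.2.2.2.2 _ (hAt n)
    have h3 := e1 n hn
    have h4 : ∑ _i : Fin (n + 1), exp (A * t n * (-1)) / (2 * (n + 1 : ℝ)) ≤ ∑ i, x (σ i) := by
      simp only [Finset.sum_const, Finset.card_univ, Fintype.card_fin, nsmul_eq_mul]
      simp only [neg_mul, one_mul, Finset.sum_neg_distrib] at h1
      have : ((n + 1 : ℕ) : ℝ) * (exp (A * t n * (-1)) / (2 * (n + 1 : ℝ))) =
          1 / 2 * exp (A * t n * (-1)) := by push_cast; field_simp
      rw [this]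
      linarith
    obtain ⟨i, -, hi⟩ := Finset.exists_le_of_sum_le Finset.univ_nonempty h4
    exact ⟨i, hi⟩
  have F2 : ∀ j, exp (-A) / 2 ≤ x j := by
    intro j
    obtain ⟨i, hi⟩ := F1 0 hd ⟨fun _ => j, fun a b _ => Subsingleton.elim (α := Fin 1) a b⟩
    simpa [t0] using hi
  have F3 : ∀ j, x j ≤ 2 * exp (A * t d * 1) := by
    intro j
    have h1 := huc _ hBu.2.2.2.2.1 (Function.Embedding.refl _)
    have h2 := hBu.2.2.2.2.2 _ (hAt d)
    simp only [one_mul, Function.Embedding.refl_apply] at h1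
    have h3 : x j ≤ ∑ i, x i := Finset.single_le_sum (fun i _ => (hx i).le) (Finset.mem_univ j)
    linarith
  have F4 : ∀ n, n ≤ d → ∀ j, exp (A * t n * -(|t n|⁻¹ + 1)) ≤ x j := by
    intro n hn j
    refine le_trans ?_ (F2 j)
    have h1 : A * t n * -(|t n|⁻¹ + 1) = -A - A * t n := by
      rw [abs_of_pos (tpos n)]
      have := (tpos n).ne'
      field_simp; ring
    rw [h1, exp_sub]
    exact div_le_div_of_nonneg_left (exp_pos _).le two_pos (e4' n hn)
  have h2A : 2 ≤ exp A := by simpa [t0] using e4' 0 (Nat.zero_le _)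
  refine ⟨fun j => ⟨le_trans ?_ (F2 j), (F3 j).trans ?_⟩, fun p hp hact => ?_⟩
  · rw [show -(2 * A) = -A - A by ring, exp_sub]
    exact div_le_div_of_nonneg_left (exp_pos _).le two_pos h2A
  · rw [show 2 * A = A + A by ring, exp_add]
    have : A * t d * 1 ≤ A := by
      have := mul_le_mul_of_nonneg_left (tanti (Nat.zero_le d)) hA0
      rw [t0] at this; linarith
    gcongr
  rcases hmem p hp with ⟨n, hn, v, hv, σ, rfl⟩ | ⟨v, hv, σ, rfl⟩
  · simp only [lowc, sum_ext] at hact ⊢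
    obtain ⟨-, h2, -, h4⟩ := (hB n (t n)).2.2.1 v hv
    have hup : ∀ i, x (σ i) ≤ exp (A * t n * (-1)) := by
      intro i
      have h5 : x (σ i) ≤ ∑ i, -(v i * x (σ i)) := by
        refine le_trans ?_ (Finset.single_le_sum (f := fun i => -(v i * x (σ i)))
          (fun l _ => ?_) (Finset.mem_univ i))
        · have := (h2 i).2
          have := hx (σ i)
          nlinarith
        · have := (h2 l).2
          have := hx (σ l)
          nlinarith
      rw [Finset.sum_neg_distrib, hact] at h5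
      have := h4 (A * t n)
      linarith
    have hin := e7 n hn x _ (hlc n hn) v hv σ hact (fun i => F4 n hn.le _) (fun i =>
      (hup i).trans (exp_le_exp.2 (mul_le_mul_of_nonneg_left (by linarith [hρ n (t n)]) (hAt n))))
    refine ⟨t n, tanti hn.le, fun j => ?_⟩
    by_cases hj : ∃ i, σ i = j
    · obtain ⟨i, rfl⟩ := hj
      rw [ext_apply]; exact hin i
    · push Not at hj
      rw [ext_of_not σ v hj]
      let σ' : Fin (n + 1 + 1) ↪ Fin d := ⟨Fin.cons j σ, by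
        rw [Fin.cons_injective_iff]
        exact ⟨fun ⟨i, hi⟩ => hj i hi, σ.injective⟩⟩
      have hn' : n + 1 < d := by
        have := Fintype.card_le_of_embedding σ'
        simp only [Fintype.card_fin] at this
        omega
      obtain ⟨i, hi⟩ := F1 (n + 1) hn' σ'
      have h5 := e5 n hn
      have h6 : 2 * exp (A * t n * -m n (t n)) ≤ x (σ' i) := by
        refine le_trans ?_ hi
        rw [le_div_iff₀ (by positivity)]
        have a1 : A * t n * -m n (t n) = A * -(t n * m n (t n)) := by ring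
        have a2 : A * t (n + 1) * (-1) = A * -t (n + 1) := by ring
        rw [a1, a2]
        push_cast
        linarith
      have h7 : exp (A * t n * (-1)) ≤ exp (A * t n * -m n (t n)) :=
        exp_le_exp.2 (mul_le_mul_of_nonneg_left (by linarith [hm1 n (t n)]) (hAt n))
      have h8 : exp (A * t n * -m n (t n)) ≤ x j := by
        have hp := exp_pos (A * t n * -m n (t n))
        induction i using Fin.cases with
        | zero =>
          have : x (σ' 0) = x j := rfl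
          linarith
        | succ i =>
          have : x (σ' i.succ) = x (σ i) := rfl
          have := hup i
          linarith
      have h9 : x j ≤ exp (A * t n * m n (t n)) := by
        refine (F3 j).trans ?_
        have a1 := e6 n hn
        have a2 : exp (A * t d * 1) ≤ exp (A * t (n + 1)) := exp_le_exp.2 (by
          have := mul_le_mul_of_nonneg_left (tanti (show n + 1 ≤ d from hn)) hA0
          linarith)
        rw [mul_assoc A (t n)]
        linarith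
      have h10 := hmr n (t n) v hv σ
      exact abs_log_le (hAt n) h8 h9 (by linarith) (by linarith)
  · simp only [upc, sum_ext] at hact ⊢
    have hin := e8 x _ huc v hv σ hact (fun i => F4 d le_rfl _) (fun i => by
      have := F3 (σ i); linarith)
    refine ⟨t d, le_rfl, fun j => ?_⟩
    obtain ⟨i, rfl⟩ := (Finite.injective_iff_surjective.1 σ.injective) j
    rw [ext_apply]; exact hin i

end Crest.Agent.H3Perm
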