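import Crest.Agent.H3Perm.Flux

set_option autoImplicit false

namespace Crest.Agent.H3Perm

open Filter Real Set Topology Crest.AnalysisR.MassAction

section ode

variable {E : Type*} [NormedAddCommGroup E] [NormedSpace ℝ E]

theorem right_deriv {x : ℝ → E} {x' : E} {t : ℝ} (ht : 0 ≤ t)
    (h : HasDerivWithinAt x x' (Ici 0) t) : HasDerivWithinAt x x' (Ici t) t :=
  h.mono (Ici_subset_Ici.2 ht)

theorem contOn_of_deriv {x x' : ℝ → E} (h : ∀ t, 0 ≤ t → HasDerivWithinAt x (x' t) (Ici 0) t) :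
    ContinuousOn x (Ici 0) := fun t ht => (h t ht).continuousWithinAt

theorem global_existence [CompleteSpace E] (F : E → E) {K : NNReal} (hF : LipschitzWith K F)
    {L : ℝ} (hL : ∀ x, ‖F x‖ ≤ L) (x₀ : E) :
    ∃ x : ℝ → E, x 0 = x₀ ∧ ∀ t, 0 ≤ t → HasDerivWithinAt x (F (x t)) (Ici 0) t := by
  have hL0 : 0 ≤ L := (norm_nonneg _).trans (hL x₀)
  have h1 : ∀ n : ℕ, ∃ α : ℝ → E, α 0 = x₀ ∧
      ∀ t ∈ Icc (0 : ℝ) n, HasDerivWithinAt α (F (α t)) (Icc 0 n) t := by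
    intro n
    have hn : (0 : ℝ) ≤ n := Nat.cast_nonneg n
    have hpl : IsPicardLindelof (fun _ => F) (tmin := 0) (tmax := n) ⟨0, le_rfl, hn⟩ x₀
        ⟨L * n, by positivity⟩ 0 ⟨L, hL0⟩ K :=
      ⟨fun _ _ => hF.lipschitzOnWith, fun _ _ => continuousOn_const, fun _ _ x _ => hL x, by
        simp only [NNReal.coe_zero, sub_zero, sub_self, max_eq_left hn]
        exact le_rfl⟩
    exact hpl.exists_eq_forall_mem_Icc_hasDerivWithinAt₀
  choose α hα0 hα using h1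
  have hR : ∀ n : ℕ, ∀ t ∈ Ico (0 : ℝ) n, HasDerivWithinAt (α n) (F (α n t)) (Ici t) t := by
    intro n t ht
    exact (hα n t (Ico_subset_Icc_self ht)).mono_of_mem_nhdsWithin (Icc_mem_nhdsGE_of_mem ht)
  have huniq : ∀ m n : ℕ, m ≤ n → EqOn (α m) (α n) (Icc 0 m) := by
    intro m n hmn
    have hmn' : (m : ℝ) ≤ n := by exact_mod_cast hmn
    refine ODE_solution_unique (v := fun _ => F) (fun _ => hF)
      (fun t ht => (hα m t ht).continuousWithinAt) (hR m)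
      (fun t ht => ((hα n t ⟨ht.1, ht.2.trans hmn'⟩).continuousWithinAt).mono
        (Icc_subset_Icc_right hmn'))
      (fun t ht => hR n t ⟨ht.1, ht.2.trans_le hmn'⟩) (by rw [hα0, hα0])
  refine ⟨fun t => α ⌈t⌉₊ t, by simp [hα0], fun t ht => ?_⟩
  set N := ⌈t⌉₊ + 1 with hN
  have htN : t < N := by
    have := Nat.le_ceil t
    push_cast [hN]; linarith
  have heq : ∀ s ∈ Icc (0 : ℝ) N, α ⌈s⌉₊ s = α N s := fun s hs =>
    huniq _ _ (Nat.ceil_le.2 hs.2) ⟨hs.1, Nat.le_ceil s⟩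
  have h2 : HasDerivWithinAt (fun s => α ⌈s⌉₊ s) (F (α N t)) (Icc 0 N) t :=
    (hα N t ⟨ht, htN.le⟩).congr heq (heq t ⟨ht, htN.le⟩)
  simp only
  rw [heq t ⟨ht, htN.le⟩]
  refine h2.mono_of_mem_nhdsWithin ?_
  rw [← Ici_inter_Iic]
  exact inter_mem_nhdsWithin _ (Iic_mem_nhds htN)

theorem ev_le_of_deriv_neg {g : ℝ → ℝ} {g' t c : ℝ} (h : HasDerivWithinAt g g' (Ici t) t)
    (hg' : g' < 0) (hc : g t ≤ c) : ∀ᶠ s in 𝓝[>] t, g s ≤ c := by
  have h1 := (hasDerivWithinAt_iff_tendsto_slope' (s := Ioi t) (by simp)).1 (h.mono Ioi_subset_Ici_self)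
  filter_upwards [h1.eventually (gt_mem_nhds hg'), self_mem_nhdsWithin] with s hs hst
  rw [slope_def_field, div_neg_iff] at hs
  have : 0 < s - t := sub_pos.2 hst
  rcases hs with hs | hs
  · linarith [hs.2]
  · linarith [hs.1]

theorem sub_mem_of_deriv [FiniteDimensional ℝ E] (S : Submodule ℝ E) {x x' : ℝ → E}
    (h : ∀ t, 0 ≤ t → HasDerivWithinAt x (x' t) (Ici 0) t) (hS : ∀ t, 0 ≤ t → x' t ∈ S)
    (t : ℝ) (ht : 0 ≤ t) : x t - x 0 ∈ S := by
  by_contra hcon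
  obtain ⟨f, hf, hker⟩ := Submodule.exists_le_ker_of_notMem hcon
  let g : E →L[ℝ] ℝ := LinearMap.toContinuousLinearMap f
  have h1 := constant_of_has_deriv_right_zero (f := fun s => g (x s)) (a := 0) (b := t)
    (g.continuous.comp_continuousOn ((contOn_of_deriv h).mono Icc_subset_Ici_self))
    (fun s hs => by
      have := g.hasFDerivAt.comp_hasDerivWithinAt s (right_deriv hs.1 (h s hs.1))
      have h0 : g (x' s) = 0 := hker (hS s hs.1)
      rw [h0] at this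
      exact this) t ⟨ht, le_rfl⟩
  apply hf
  rw [map_sub]
  exact sub_eq_zero.2 h1

end ode

variable {d : ℕ}

theorem deriv_dot {x : ℝ → Fin d → ℝ} {x' : Fin d → ℝ} {s : Set ℝ} {t : ℝ} (v : Fin d → ℝ)
    (h : HasDerivWithinAt x x' s t) :
    HasDerivWithinAt (fun t => ∑ j, v j * x t j) (∑ j, v j * x' j) s t :=
  HasDerivWithinAt.fun_sum fun j _ => (hasDerivWithinAt_pi.1 h j).const_mul (v j)

theorem field_mem (R : Network d) (k : (Fin d → ℕ) × (Fin d → ℕ) → ℝ) (x : Fin d → ℝ) :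
    field R k x ∈ stoichSubspace R :=
  Submodule.sum_mem _ fun r hr => Submodule.smul_mem _ _ (Submodule.subset_span ⟨r, hr, rfl⟩)

theorem contDiff_field (R : Network d) (k : (Fin d → ℕ) × (Fin d → ℕ) → ℝ) :
    ContDiff ℝ 1 (field R k) := by
  unfold field
  refine ContDiff.sum fun r _ => ?_
  have h : ContDiff ℝ 1 fun x : Fin d → ℝ => k r * ∏ i, x i ^ r.1 i :=
    contDiff_const.mul (contDiff_prod fun i _ => (contDiff_apply ℝ ℝ i).pow _)
  exact h.smul (contDiff_const (c := reactionVector r))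

theorem dot_eq_zero_of_mem (R : Network d) {v : Fin d → ℝ}
    (hv : ∀ r ∈ R, ∑ j, v j * reactionVector r j = 0) {z : Fin d → ℝ}
    (hz : z ∈ stoichSubspace R) : ∑ j, v j * z j = 0 := by
  induction hz using Submodule.span_induction with
  | mem z hz => obtain ⟨r, hr, rfl⟩ := hz; exact hv r hr
  | zero => simp
  | add a b _ _ ha hb => simp only [Pi.add_apply, mul_add, Finset.sum_add_distrib, ha, hb, add_zero]
  | smul c a _ ha =>
    simp only [Pi.smul_apply, smul_eq_mul, mul_left_comm _ c, ← Finset.mul_sum, ha, mul_zero]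

/-- the polytope at scale `A` -/
def KK (𝒞 : Set ((Fin d → ℝ) × (ℝ → ℝ))) (S : Submodule ℝ (Fin d → ℝ)) (c : Fin d → ℝ) (A : ℝ) :
    Set (Fin d → ℝ) :=
  {x | (∀ j, 0 < x j) ∧ x - c ∈ S ∧ ∀ p ∈ 𝒞, ∑ j, p.1 j * x j ≤ p.2 A}

theorem convex_KK (𝒞 : Set ((Fin d → ℝ) × (ℝ → ℝ))) (S : Submodule ℝ (Fin d → ℝ)) (c : Fin d → ℝ)
    (A : ℝ) : Convex ℝ (KK 𝒞 S c A) := by
  intro x hx y hy a b ha hb hab
  refine ⟨fun j => ?_, ?_, fun p hp => ?_⟩
  · have h1 := hx.1 j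
    have h2 := hy.1 j
    simp only [Pi.add_apply, Pi.smul_apply, smul_eq_mul]
    rcases ha.eq_or_lt with h | h
    · subst h; simp only [zero_add] at hab; subst hab; simpa using h2
    · have := mul_pos h h1
      have := mul_nonneg hb h2.le
      linarith
  · have : a • x + b • y - c = a • (x - c) + b • (y - c) := by
      rw [smul_sub, smul_sub, sub_add_sub_comm, ← add_smul, hab, one_smul]
    rw [this]
    exact S.add_mem (S.smul_mem _ hx.2.1) (S.smul_mem _ hy.2.1)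
  · have h1 := hx.2.2 p hp
    have h2 := hy.2.2 p hp
    have : ∑ j, p.1 j * (a • x + b • y) j = a * ∑ j, p.1 j * x j + b * ∑ j, p.1 j * y j := by
      simp only [Pi.add_apply, Pi.smul_apply, smul_eq_mul, Finset.mul_sum, ← Finset.sum_add_distrib]
      exact Finset.sum_congr rfl fun j _ => by ring
    rw [this]
    calc _ ≤ a * p.2 A + b * p.2 A := by gcongr
      _ = _ := by rw [← add_mul, hab, one_mul]

theorem compact_Z (𝒞 : Set ((Fin d → ℝ) × (ℝ → ℝ))) (hcont : ∀ p ∈ 𝒞, Continuous p.2)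
    (S : Submodule ℝ (Fin d → ℝ)) (c : Fin d → ℝ) (A₁ A₂ : ℝ)
    (hb : ∀ A, A₁ ≤ A → ∀ x ∈ KK 𝒞 S c A, ∀ j, exp (-(2 * A)) ≤ x j ∧ x j ≤ exp (2 * A)) :
    IsCompact {q : ℝ × (Fin d → ℝ) | q.1 ∈ Icc A₁ A₂ ∧ q.2 ∈ KK 𝒞 S c q.1} := by
  have hS : IsClosed (S : Set (Fin d → ℝ)) := S.closed_of_finiteDimensional
  have heq : {q : ℝ × (Fin d → ℝ) | q.1 ∈ Icc A₁ A₂ ∧ q.2 ∈ KK 𝒞 S c q.1} =
      (Icc A₁ A₂ ×ˢ Icc (fun _ => exp (-(2 * A₂))) (fun _ => exp (2 * A₂))) ∩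
        ((fun q => q.2 - c) ⁻¹' (S : Set _) ∩
          ⋂ p ∈ 𝒞, {q | ∑ j, p.1 j * q.2 j ≤ p.2 q.1}) := by
    ext q
    simp only [mem_ofPred_eq, mem_inter_iff, mem_prod, mem_preimage, mem_iInter, SetLike.mem_coe]
    constructor
    · rintro ⟨h1, h2⟩
      refine ⟨⟨h1, fun j => ?_, fun j => ?_⟩, h2.2.1, h2.2.2⟩
      · exact (exp_le_exp.2 (by linarith [h1.2])).trans (hb _ h1.1 _ h2 j).1
      · exact (hb _ h1.1 _ h2 j).2.trans (exp_le_exp.2 (by linarith [h1.2]))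
    · rintro ⟨⟨h1, h2⟩, h3, h4⟩
      exact ⟨h1, fun j => (exp_pos _).trans_le (h2.1 j), h3, h4⟩
  rw [heq]
  refine (isCompact_Icc.prod isCompact_Icc).inter_right (IsClosed.inter ?_ ?_)
  · exact hS.preimage (by fun_prop)
  · refine isClosed_biInter fun p hp => isClosed_le (by fun_prop) ?_
    exact (hcont p hp).comp continuous_fst

theorem compact_KK (𝒞 : Set ((Fin d → ℝ) × (ℝ → ℝ))) (hcont : ∀ p ∈ 𝒞, Continuous p.2)
    (S : Submodule ℝ (Fin d → ℝ)) (c : Fin d → ℝ) (A : ℝ)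
    (hb : ∀ A', A ≤ A' → ∀ x ∈ KK 𝒞 S c A', ∀ j, exp (-(2 * A')) ≤ x j ∧ x j ≤ exp (2 * A')) :
    IsCompact (KK 𝒞 S c A) := by
  have := (compact_Z 𝒞 hcont S c A A hb).image continuous_snd
  convert this using 1
  ext x
  constructor
  · intro hx; exact ⟨(A, x), ⟨⟨le_rfl, le_rfl⟩, hx⟩, rfl⟩
  · rintro ⟨⟨A', y⟩, ⟨h1, h2⟩, rfl⟩
    have : A' = A := le_antisymm h1.2 h1.1
    subst this; exact h2

theorem invariant {𝒞 : Set ((Fin d → ℝ) × (ℝ → ℝ))} (hfin : 𝒞.Finite)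
    {S : Submodule ℝ (Fin d → ℝ)} {c : Fin d → ℝ} {A : ℝ} (hcl : IsClosed (KK 𝒞 S c A))
    {f : (Fin d → ℝ) → Fin d → ℝ}
    (hstrict : ∀ x ∈ KK 𝒞 S c A, ∀ p ∈ 𝒞, ∑ j, p.1 j * x j = p.2 A → ∑ j, p.1 j * f x j < 0)
    {x x' : ℝ → Fin d → ℝ} (h : ∀ t, 0 ≤ t → HasDerivWithinAt x (x' t) (Ici 0) t)
    (hS : ∀ t, 0 ≤ t → x' t ∈ S) (hf : ∀ t, 0 ≤ t → x t ∈ KK 𝒞 S c A → x' t = f (x t))
    {T : ℝ} (hT : 0 ≤ T) (h0 : x T ∈ KK 𝒞 S c A) (t : ℝ) (ht : T ≤ t) : x t ∈ KK 𝒞 S c A := by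
  have hcls : ∀ s, 0 ≤ s → x s - c ∈ S := by
    intro s hs
    have e : x s - c = (x s - x 0) - (x T - x 0) + (x T - c) := by abel
    rw [e]
    exact S.add_mem (S.sub_mem (sub_mem_of_deriv S h hS s hs) (sub_mem_of_deriv S h hS T hT))
      h0.2.1
  have hsub : Icc T t ⊆ Ici 0 := fun s hs => hT.trans hs.1
  have key := IsClosed.Icc_subset_of_forall_mem_nhdsWithin (s := x ⁻¹' KK 𝒞 S c A) (a := T) (b := t)
    (by
      rw [inter_comm]
      exact ((contOn_of_deriv h).mono hsub).preimage_isClosed_of_isClosed isClosed_Icc hcl)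
    h0 (by
      rintro s ⟨hs, hsI⟩
      have hs0 : 0 ≤ s := hT.trans hsI.1
      have hd := right_deriv hs0 (h s hs0)
      have hc : Tendsto x (𝓝[>] s) (𝓝 (x s)) :=
        (hd.continuousWithinAt.mono Ioi_subset_Ici_self).tendsto
      have e1 : ∀ᶠ u in 𝓝[>] s, ∀ j, 0 < x u j := by
        rw [eventually_all]
        intro j
        exact (((continuous_apply j).tendsto _).comp hc).eventually (lt_mem_nhds (hs.1 j))
      have e2 : ∀ᶠ u in 𝓝[>] s, ∀ p ∈ 𝒞, ∑ j, p.1 j * x u j ≤ p.2 A := by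
        rw [hfin.eventually_all]
        intro p hp
        rcases (hs.2.2 p hp).eq_or_lt with he | hl
        · refine ev_le_of_deriv_neg (deriv_dot p.1 hd) ?_ he.le
          rw [hf s hs0 hs]
          exact hstrict _ hs p hp he
        · have hc2 : Continuous fun z : Fin d → ℝ => ∑ j, p.1 j * z j := by fun_prop
          exact (((hc2.tendsto _).comp hc).eventually (gt_mem_nhds hl)).mono fun u hu => hu.le
      filter_upwards [e1, e2, self_mem_nhdsWithin] with u h1 h2 h3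
      exact ⟨h1, hcls u (hs0.trans (le_of_lt h3)), h2⟩)
  exact key ⟨ht, le_rfl⟩

theorem absorb {𝒞 : Set ((Fin d → ℝ) × (ℝ → ℝ))} (hfin : 𝒞.Finite)
    (hcont : ∀ p ∈ 𝒞, Continuous p.2)
    {S : Submodule ℝ (Fin d → ℝ)} {c : Fin d → ℝ} {A₁ A₂ : ℝ} (h12 : A₁ ≤ A₂)
    (hb : ∀ A, A₁ ≤ A → ∀ x ∈ KK 𝒞 S c A, ∀ j, exp (-(2 * A)) ≤ x j ∧ x j ≤ exp (2 * A))
    {f : (Fin d → ℝ) → Fin d → ℝ} (hfc : Continuous f) (hfS : ∀ x, f x ∈ S)
    (hstrict : ∀ A, A₁ ≤ A → ∀ x ∈ KK 𝒞 S c A, ∀ p ∈ 𝒞, ∑ j, p.1 j * x j = p.2 A →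
      ∑ j, p.1 j * f x j < 0)
    {x : ℝ → Fin d → ℝ} (h : ∀ t, 0 ≤ t → HasDerivWithinAt x (f (x t)) (Ici 0) t)
    (h0 : x 0 ∈ KK 𝒞 S c A₂) : ∃ T, 0 ≤ T ∧ x T ∈ KK 𝒞 S c A₁ := by
  have hZ := compact_Z 𝒞 hcont S c A₁ A₂ hb
  have hinv : ∀ A, A₁ ≤ A → ∀ T, 0 ≤ T → x T ∈ KK 𝒞 S c A → ∀ t, T ≤ t → x t ∈ KK 𝒞 S c A :=
    fun A hA T hT hx t ht => invariant hfin
      (compact_KK 𝒞 hcont S c A fun A' hA' => hb A' (hA.trans hA')).isClosed (hstrict A hA) h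
      (fun t _ => hfS _) (fun _ _ _ => rfl) hT hx t ht
  have h1 : ∀ p ∈ hfin.toFinset, ∃ ε, 0 < ε ∧ ∀ A ∈ Icc A₁ A₂, ∀ z ∈ KK 𝒞 S c A,
      ε ≤ max (p.2 A - ∑ j, p.1 j * z j) (-∑ j, p.1 j * f z j) := by
    intro p hp
    rw [Set.Finite.mem_toFinset] at hp
    have hc : Continuous fun q : ℝ × (Fin d → ℝ) =>
        max (p.2 q.1 - ∑ j, p.1 j * q.2 j) (-∑ j, p.1 j * f q.2 j) := by
      have := hcont p hp
      fun_prop
    obtain ⟨ε, hε, hle⟩ := hZ.exists_forall_le' hc.continuousOn (a := 0) (by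
      rintro ⟨A, z⟩ ⟨hA, hz⟩
      rcases (hz.2.2 p hp).eq_or_lt with he | hl
      · exact lt_max_of_lt_right (neg_pos.2 (hstrict A hA.1 z hz p hp he))
      · exact lt_max_of_lt_left (sub_pos.2 hl))
    exact ⟨ε, hε, fun A hA z hz => hle (A, z) ⟨hA, hz⟩⟩
  choose! ε₀ hε₀ hε₀le using h1
  obtain ⟨ε, hε, hεle⟩ := exists_pos_le_finset hfin.toFinset ε₀ hε₀
  have h2 : ∀ p ∈ hfin.toFinset, ∃ κ, 0 < κ ∧ ∀ A ∈ Icc A₁ A₂, ∀ A' ∈ Icc A₁ A₂,
      dist A A' < κ → dist (p.2 A) (p.2 A') < ε / 2 := by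
    intro p hp
    rw [Set.Finite.mem_toFinset] at hp
    have := isCompact_Icc.uniformContinuousOn_of_continuous (s := Icc A₁ A₂)
      (hcont p hp).continuousOn
    exact Metric.uniformContinuousOn_iff.1 this (ε / 2) (half_pos hε)
  choose! κ₀ hκ₀ hκ₀le using h2
  obtain ⟨κ, hκ, hκle⟩ := exists_pos_le_finset hfin.toFinset κ₀ hκ₀
  have step : ∀ A ∈ Icc A₁ A₂, ∀ A' ∈ Icc A₁ A₂, dist A A' < κ → ∀ T, 0 ≤ T → x T ∈ KK 𝒞 S c A →
      x (T + 1) ∈ KK 𝒞 S c A' := by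
    intro A hA A' hA' hd T hT hx
    have hx1 := hinv A hA.1 T hT hx (T + 1) (by linarith)
    refine ⟨hx1.1, hx1.2.1, fun p hp => ?_⟩
    have hp' : p ∈ hfin.toFinset := (Set.Finite.mem_toFinset _).2 hp
    have hsub : Icc T (T + 1) ⊆ Ici 0 := fun s hs => hT.trans hs.1
    have hc2 : Continuous fun z : Fin d → ℝ => ∑ j, p.1 j * z j := by fun_prop
    have h3 := image_le_of_deriv_right_lt_deriv_boundary (f := fun t => ∑ j, p.1 j * x t j)
      (f' := fun t => ∑ j, p.1 j * f (x t) j) (a := T) (b := T + 1)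
      (hc2.comp_continuousOn ((contOn_of_deriv h).mono hsub))
      (fun s hs => deriv_dot p.1 (right_deriv (hT.trans hs.1) (h s (hT.trans hs.1))))
      (B := fun t => p.2 A - ε / 2 * (t - T)) (B' := fun _ => -(ε / 2))
      (by simpa using hx.2.2 p hp)
      (fun s => by
        simpa using (((hasDerivAt_id s).sub_const T).const_mul (ε / 2)).const_sub (p.2 A))
      (fun s hs he => by
        have h4 := (hεle p hp').trans (hε₀le p hp' A hA (x s) (hinv A hA.1 T hT hx s hs.1))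
        have h5 : p.2 A - ∑ j, p.1 j * x s j < ε := by
          rw [he]
          have : ε / 2 * (s - T) ≤ ε / 2 * 1 := by
            gcongr; linarith [hs.2]
          linarith
        rcases le_max_iff.1 h4 with h6 | h6
        · linarith
        · linarith)
      (x := T + 1) ⟨by linarith, le_rfl⟩
    have h7 := hκ₀le p hp' A hA A' hA' (hd.trans_le (hκle p hp'))
    rw [Real.dist_eq, abs_lt] at h7
    simp only [add_sub_cancel_left, mul_one] at h3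
    linarith [h7.2]
  have iter : ∀ n : ℕ, x n ∈ KK 𝒞 S c (max A₁ (A₂ - n * (κ / 2))) := by
    intro n
    have hmem : ∀ m : ℕ, max A₁ (A₂ - m * (κ / 2)) ∈ Icc A₁ A₂ := fun m =>
      ⟨le_max_left _ _, max_le h12 (by
        have : 0 ≤ (m : ℝ) * (κ / 2) := by positivity
        linarith)⟩
    induction n with
    | zero => simpa [max_eq_right h12] using h0
    | succ n ih =>
      have := step _ (hmem n) _ (hmem (n + 1)) (by
        rw [Real.dist_eq, max_comm A₁, max_comm A₁]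
        refine (abs_max_sub_max_le_abs _ _ _).trans_lt ?_
        push_cast
        rw [show A₂ - n * (κ / 2) - (A₂ - (n + 1) * (κ / 2)) = κ / 2 by ring,
          abs_of_pos (half_pos hκ)]
        exact half_lt_self hκ) n (Nat.cast_nonneg n) ih
      push_cast at this ⊢
      exact this
  obtain ⟨n, hn⟩ := exists_nat_ge ((A₂ - A₁) / (κ / 2))
  refine ⟨n, Nat.cast_nonneg n, ?_⟩
  have := iter n
  rwa [max_eq_left (by rw [div_le_iff₀ (half_pos hκ)] at hn; linarith)] at this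

end Crest.Agent.H3Perm
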