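import Crest.Agent.H3Perm.Cuts
import Crest.Prelude.Def_MassAction

set_option autoImplicit false

namespace Crest.Agent.H3Perm

open Filter Real Crest.AnalysisR.MassAction

theorem path_bound {α : Type*} (rel : α → α → Prop) {z y : α} (h : Relation.ReflTransGen rel z y) :
    ∃ n : ℕ, ∀ (a : α → ℝ) (E : ℝ), 0 ≤ E → (∀ u w, rel u w → a y < a u → a u - a w ≤ E) →
      a z - a y ≤ n * E := by
  induction h using Relation.ReflTransGen.head_induction_on with
  | refl => exact ⟨0, fun a E _ _ => by simp⟩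
  | @head u w huw _ ih =>
    obtain ⟨n, hn⟩ := ih
    refine ⟨n + 1, fun a E hE hstep => ?_⟩
    have h1 := hn a E hE hstep
    have hn0 : (0 : ℝ) ≤ n * E := by positivity
    push_cast
    by_cases hu : a y < a u
    · have := hstep u w huw hu
      linarith
    · push Not at hu
      linarith

/-- the linear functional `v` evaluated on a complex -/
noncomputable def cval {d : ℕ} (v : Fin d → ℝ) (y : Fin d → ℕ) : ℝ := ∑ j, v j * (y j : ℝ)

theorem dot_reactionVector {d : ℕ} (v : Fin d → ℝ) (r : (Fin d → ℕ) × (Fin d → ℕ)) :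
    ∑ j, v j * reactionVector r j = cval v r.2 - cval v r.1 := by
  simp only [cval, reactionVector, mul_sub, Finset.sum_sub_distrib]

theorem dot_field {d : ℕ} (R : Network d) (k : (Fin d → ℕ) × (Fin d → ℕ) → ℝ) (v x : Fin d → ℝ) :
    ∑ j, v j * field R k x j =
      ∑ r ∈ R, (k r * ∏ i, x i ^ (r.1 i)) * (cval v r.2 - cval v r.1) := by
  simp only [field, Finset.sum_apply, Pi.smul_apply, smul_eq_mul, Finset.mul_sum,
    ← dot_reactionVector]
  rw [Finset.sum_comm]
  refine Finset.sum_congr rfl fun r _ => Finset.sum_congr rfl fun j _ => by ring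

theorem flux {d : ℕ} (R : Network d) (hR : IsWeaklyReversible R)
    (k : (Fin d → ℕ) × (Fin d → ℕ) → ℝ) (hk : ∀ r ∈ R, 0 < k r) :
    ∃ Γ : ℝ, 0 < Γ ∧ ∀ v x : Fin d → ℝ, (∀ j, 0 < x j) →
      (∀ r ∈ R, ∀ r' ∈ R, cval v r.1 < cval v r'.1 →
        Γ * ∏ i, x i ^ (r.1 i) ≤ ∏ i, x i ^ (r'.1 i)) →
      ∑ j, v j * field R k x j < 0 ∨ ∀ r ∈ R, ∑ j, v j * reactionVector r j = 0 := by
  have h1 : ∀ r : (Fin d → ℕ) × (Fin d → ℕ), ∃ n : ℕ, r ∈ R →
      ∀ (a : (Fin d → ℕ) → ℝ) (E : ℝ), 0 ≤ E →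
      (∀ u w, (u, w) ∈ R → a r.1 < a u → a u - a w ≤ E) → a r.2 - a r.1 ≤ n * E := by
    intro r
    by_cases hr : r ∈ R
    · obtain ⟨n, hn⟩ := path_bound _ (hR r hr)
      exact ⟨n, fun _ => hn⟩
    · exact ⟨0, fun h => absurd h hr⟩
  choose n hn using h1
  obtain ⟨κ, hκ, hκle⟩ := exists_pos_le_finset R k hk
  set S : ℝ := ∑ r ∈ R, k r * n r with hS
  have hS0 : 0 ≤ S := Finset.sum_nonneg fun r hr => by have := hk r hr; positivity
  refine ⟨(2 * S + 1) / κ, by positivity, fun v x hx hsep => ?_⟩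
  set Γ := (2 * S + 1) / κ with hΓ
  have hΓ0 : 0 < Γ := by positivity
  have hκΓ : κ * Γ = 2 * S + 1 := by rw [hΓ]; field_simp
  let m : (Fin d → ℕ) → ℝ := fun y => ∏ i, x i ^ (y i)
  have hm : ∀ y, 0 < m y := fun y => Finset.prod_pos fun i _ => pow_pos (hx i) _
  let a := cval v
  set Dn : ℝ := ∑ r ∈ R, (k r * m r.1) * max (a r.1 - a r.2) 0 with hDn
  set Up : ℝ := ∑ r ∈ R, (k r * m r.1) * max (a r.2 - a r.1) 0 with hUp
  have hterm : ∀ r ∈ R, ∀ z : ℝ, 0 ≤ (k r * m r.1) * max z 0 := fun r hr z => by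
    have := hk r hr; have := hm r.1; have := le_max_right z 0; positivity
  have hDn0 : 0 ≤ Dn := Finset.sum_nonneg fun r hr => hterm r hr _
  have hsum : ∑ j, v j * field R k x j = Up - Dn := by
    rw [dot_field, hUp, hDn, ← Finset.sum_sub_distrib]
    refine Finset.sum_congr rfl fun r _ => ?_
    rw [← mul_sub]
    congr 1
    change a r.2 - a r.1 = _
    rcases le_total (a r.1) (a r.2) with h | h
    · rw [max_eq_left (by linarith), max_eq_right (by linarith)]; ring
    · rw [max_eq_right (by linarith), max_eq_left (by linarith)]; ring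
  have hup : ∀ r ∈ R, (k r * m r.1) * max (a r.2 - a r.1) 0 ≤ k r * n r * (Dn / (2 * S + 1)) := by
    intro r hr
    have hE : 0 ≤ Dn / ((2 * S + 1) * m r.1) := by have := hm r.1; positivity
    have h2 := hn r hr a _ hE (fun u w huw hlt => by
      have h3 : (k (u, w) * m u) * max (a u - a w) 0 ≤ Dn :=
        Finset.single_le_sum (f := fun r => (k r * m r.1) * max (a r.1 - a r.2) 0)
          (fun r hr => hterm r hr _) huw
      have h4 : Γ * m r.1 ≤ m u := hsep r hr (u, w) huw hlt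
      have h5 := hκle _ huw
      have h6 : (2 * S + 1) * m r.1 ≤ k (u, w) * m u := by
        rw [← hκΓ, mul_assoc]
        have := hm r.1
        have := hk _ huw
        gcongr
      refine (le_max_left _ 0).trans ?_
      rw [le_div_iff₀ (by have := hm r.1; positivity)]
      have := le_max_right (a u - a w) 0
      nlinarith)
    have h7 : max (a r.2 - a r.1) 0 ≤ n r * (Dn / ((2 * S + 1) * m r.1)) :=
      max_le h2 (by positivity)
    have := hk r hr
    have := hm r.1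
    calc _ ≤ (k r * m r.1) * (n r * (Dn / ((2 * S + 1) * m r.1))) := by gcongr
      _ = _ := by field_simp
  have hUpDn : Up ≤ Dn / 2 := by
    refine (Finset.sum_le_sum hup).trans ?_
    rw [← Finset.sum_mul, ← hS, mul_div_assoc', div_le_div_iff₀ (by positivity) two_pos]
    nlinarith
  rcases hDn0.eq_or_lt with h0 | h0
  · right
    intro r hr
    rw [dot_reactionVector]
    have hpos : 0 < k r * m r.1 := mul_pos (hk r hr) (hm _)
    have e1 : (k r * m r.1) * max (a r.1 - a r.2) 0 ≤ Dn :=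
      Finset.single_le_sum (f := fun r => (k r * m r.1) * max (a r.1 - a r.2) 0)
        (fun r hr => hterm r hr _) hr
    have e2 : (k r * m r.1) * max (a r.2 - a r.1) 0 ≤ Up :=
      Finset.single_le_sum (f := fun r => (k r * m r.1) * max (a r.2 - a r.1) 0)
        (fun r hr => hterm r hr _) hr
    have f1 : max (a r.1 - a r.2) 0 ≤ 0 := by
      by_contra hc; push Not at hc
      have := mul_pos hpos hc; linarith
    have f2 : max (a r.2 - a r.1) 0 ≤ 0 := by
      by_contra hc; push Not at hc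
      have := mul_pos hpos hc; linarith
    have g1 := (le_max_left _ _).trans f1
    have g2 := (le_max_left _ _).trans f2
    change a r.2 - a r.1 = 0
    linarith
  · left
    rw [hsum]; linarith

theorem log_monomial {d : ℕ} (x : Fin d → ℝ) (hx : ∀ j, 0 < x j) (y : Fin d → ℕ) :
    ∏ i, x i ^ (y i) = exp (cval (fun j => log (x j)) y) := by
  unfold cval
  rw [exp_sum]
  refine Finset.prod_congr rfl fun i _ => ?_
  rw [mul_comm, exp_nat_mul, exp_log (hx i)]

theorem constraints {d : ℕ} (hd : 1 ≤ d) (R : Network d) (hR : IsWeaklyReversible R)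
    (k : (Fin d → ℕ) × (Fin d → ℕ) → ℝ) (hk : ∀ r ∈ R, 0 < k r) :
    ∃ 𝒞 : Set ((Fin d → ℝ) × (ℝ → ℝ)), 𝒞.Finite ∧ (∀ p ∈ 𝒞, Continuous p.2) ∧
      (∀ x : Fin d → ℝ, (∀ j, 0 < x j) → ∀ᶠ A in atTop, ∀ p ∈ 𝒞, ∑ j, p.1 j * x j < p.2 A) ∧
      ∀ᶠ A in atTop, ∀ x : Fin d → ℝ, (∀ j, 0 < x j) → (∀ p ∈ 𝒞, ∑ j, p.1 j * x j ≤ p.2 A) →
        (∀ j, exp (-(2 * A)) ≤ x j ∧ x j ≤ exp (2 * A)) ∧
        ∀ p ∈ 𝒞, ∑ j, p.1 j * x j = p.2 A →
          ∑ j, p.1 j * field R k x j < 0 ∨ ∀ r ∈ R, ∑ j, p.1 j * reactionVector r j = 0 := by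
  obtain ⟨Γ, hΓ, hflux⟩ := flux R hR k hk
  have hg : ∀ v : Fin d → ℝ, ∃ ρ, 0 < ρ ∧ ∀ y : Fin d → ℝ, (∀ j, |y j - v j| ≤ ρ) →
      ∀ r ∈ R, ∀ r' ∈ R, cval v r.1 < cval v r'.1 → ρ ≤ cval y r'.1 - cval y r.1 := by
    intro v
    have h1 : ∀ᶠ q : (Fin d → ℝ) × ℝ in nhds (v, 0), ∀ r ∈ R, ∀ r' ∈ R,
        cval v r.1 < cval v r'.1 → q.2 < cval q.1 r'.1 - cval q.1 r.1 := by
      simp only [Finset.eventually_all]
      intro r _ r' _
      by_cases h : cval v r.1 < cval v r'.1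
      · have hc : Continuous fun q : (Fin d → ℝ) × ℝ => cval q.1 r'.1 - cval q.1 r.1 := by
          unfold cval; fun_prop
        have := continuous_snd.continuousAt.eventually_lt (hc.continuousAt (x := (v, 0)))
          (by simpa using h)
        exact this.mono fun q hq _ => hq
      · exact Eventually.of_forall fun q h' => absurd h' h
    obtain ⟨ε, hε, hball⟩ := Metric.eventually_nhds_iff.1 h1
    refine ⟨ε / 2, half_pos hε, fun y hy r hr r' hr' hlt => ?_⟩
    refine (hball (y := (y, ε / 2)) ?_ r hr r' hr' hlt).le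
    rw [Prod.dist_eq]
    refine max_lt ?_ ?_
    · refine lt_of_le_of_lt ((dist_pi_le_iff (half_pos hε).le).2 fun j => ?_) (half_lt_self hε)
      rw [Real.dist_eq]; exact hy j
    · rw [Real.dist_eq, sub_zero, abs_of_pos (half_pos hε)]; exact half_lt_self hε
  choose ρ hρ hρv using hg
  obtain ⟨𝒞, s₀, hfin, hs₀, hcont, hin, hev⟩ := tropical d hd ρ hρ
  refine ⟨𝒞, hfin, hcont, hin, ?_⟩
  have E : ∀ᶠ A in atTop, ∀ p ∈ 𝒞, Γ * exp (A * 0) ≤ 1 * exp (A * (s₀ * ρ p.1)) :=
    hfin.eventually_all.2 fun p _ => ev_exp (mul_pos hs₀ (hρ _)) _ one_pos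
  filter_upwards [hev, E, eventually_gt_atTop 0] with A hA hE hA0 x hx hcon
  obtain ⟨h1, h2⟩ := hA x hx hcon
  refine ⟨h1, fun p hp hact => ?_⟩
  obtain ⟨s, hs, hj⟩ := h2 p hp hact
  have hAs : 0 < A * s := mul_pos hA0 (hs₀.trans_le hs)
  refine hflux p.1 x hx fun r hr r' hr' hlt => ?_
  have h3 := hρv p.1 (fun j => log (x j) / (A * s)) (fun j => by
    have : log (x j) / (A * s) - p.1 j = (log (x j) - A * s * p.1 j) / (A * s) := by
      rw [sub_div, mul_div_cancel_left₀ _ hAs.ne']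
    rw [this, abs_div, abs_of_pos hAs, div_le_iff₀ hAs, mul_comm (ρ p.1)]
    exact hj j) r hr r' hr' hlt
  have h4 : ∀ y, cval (fun j => log (x j) / (A * s)) y = cval (fun j => log (x j)) y / (A * s) := by
    intro y
    unfold cval
    rw [Finset.sum_div]
    exact Finset.sum_congr rfl fun j _ => by ring
  rw [h4, h4, ← sub_div, le_div_iff₀ hAs] at h3
  rw [log_monomial x hx, log_monomial x hx]
  have h5 := hE p hp
  simp only [mul_zero, exp_zero, mul_one, one_mul] at h5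
  calc _ ≤ exp (A * (s₀ * ρ p.1)) * exp (cval (fun j => log (x j)) r.1) := by gcongr
    _ = exp (A * (s₀ * ρ p.1) + cval (fun j => log (x j)) r.1) := by rw [exp_add]
    _ ≤ _ := exp_le_exp.2 (by
        have : A * (s₀ * ρ p.1) ≤ ρ p.1 * (A * s) := by
          have := hρ p.1
          have : A * s₀ ≤ A * s := by gcongr
          nlinarith
        linarith)

end Crest.Agent.H3Perm
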