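import Mathlib

set_option autoImplicit false

namespace Crest.Agent.H3Perm

open Filter Real

theorem ev_exp {a b : ℝ} (hab : a < b) (K : ℝ) {g : ℝ} (hg : 0 < g) :
    ∀ᶠ A in atTop, K * exp (A * a) ≤ g * exp (A * b) := by
  have h1 : Tendsto (fun A : ℝ => exp (A * (b - a))) atTop atTop :=
    tendsto_exp_atTop.comp (tendsto_id.atTop_mul_const (sub_pos.2 hab))
  filter_upwards [h1.eventually_ge_atTop (K / g)] with A hA
  have h2 : exp (A * b) = exp (A * (b - a)) * exp (A * a) := by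
    rw [← exp_add]; congr 1; ring
  rw [h2, ← mul_assoc]
  rw [div_le_iff₀ hg] at hA
  have := exp_pos (A * a)
  nlinarith

theorem exists_pos_le_finset {α : Type*} (s : Finset α) (f : α → ℝ) (hf : ∀ a ∈ s, 0 < f a) :
    ∃ m, 0 < m ∧ ∀ a ∈ s, m ≤ f a := by
  rcases s.eq_empty_or_nonempty with rfl | hs
  · exact ⟨1, one_pos, by simp⟩
  · obtain ⟨a, ha, h⟩ := s.exists_min_image f hs
    exact ⟨f a, hf a ha, h⟩

/-- `v` maximises the affine functions -/
def IsMaxr {k : ℕ} (Λ : Finset (Fin k → ℝ)) (c : (Fin k → ℝ) → ℝ → ℝ) (A : ℝ)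
    (x v : Fin k → ℝ) : Prop :=
  ∀ w ∈ Λ, ∑ i, w i * x i - c w A ≤ ∑ i, v i * x i - c v A

def Basic {k : ℕ} (L lam : ℝ) (Λ : Finset (Fin k → ℝ)) (c : (Fin k → ℝ) → ℝ → ℝ)
    (β C : ℝ) : Prop :=
  β < lam ∧ 0 ≤ C ∧
  (∀ v ∈ Λ, Antitone v ∧ (∀ i, L ≤ v i ∧ v i ≤ lam) ∧ Continuous (c v) ∧ ∀ A, 0 ≤ c v A) ∧
  (∃ b ∈ Λ, ∀ A, c b A = 0) ∧ (fun _ => lam) ∈ Λ ∧
  ∀ A, 0 ≤ A → c (fun _ => lam) A ≤ C * exp (A * β)

def P (k : ℕ) (r : (Fin k → ℝ) → ℝ) (L lam : ℝ) : Prop :=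
  ∃ (Λ : Finset (Fin k → ℝ)) (c : (Fin k → ℝ) → ℝ → ℝ) (ρ β C : ℝ), 0 < ρ ∧
    Basic L lam Λ c β C ∧
    ∀ᶠ A in atTop, ∀ x : Fin k → ℝ, Antitone x → (∀ i, exp (A * L) ≤ x i) →
      (∀ i, x i ≤ exp (A * (lam + ρ))) → ∀ v ∈ Λ, IsMaxr Λ c A x v →
        ∀ i, |log (x i) - A * v i| ≤ A * r v

def R (k : ℕ) (r : (Fin (k + 1) → ℝ) → ℝ) (L μ ρ : ℝ) : Prop :=
  ∃ (Λ : Finset (Fin (k + 1) → ℝ)) (c : (Fin (k + 1) → ℝ) → ℝ → ℝ) (β C : ℝ) (γ : ℝ → ℝ),
    Basic L μ Λ c β C ∧ (∀ v ∈ Λ, v 0 = μ → ∀ A, γ A ≤ c v A) ∧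
    (∃ b ∈ Λ, b 0 = μ ∧ ∀ A, c b A = γ A) ∧
    ∀ᶠ A in atTop, ∀ x : Fin (k + 1) → ℝ, Antitone x → (∀ i, exp (A * L) ≤ x i) →
      ∀ v ∈ Λ, IsMaxr Λ c A x v → (v 0 = μ → x 0 ≤ exp (A * (μ + ρ))) →
        ∀ i, |log (x i) - A * v i| ≤ A * r v

theorem abs_log_le {x A a lo hi r : ℝ} (hA : 0 ≤ A) (h1 : exp (A * lo) ≤ x) (h2 : x ≤ exp (A * hi))
    (h3 : a - r ≤ lo) (h4 : hi ≤ a + r) : |log x - A * a| ≤ A * r := by
  have hx : 0 < x := (exp_pos _).trans_le h1
  have b1 : A * lo ≤ log x := (le_log_iff_exp_le hx).2 h1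
  have b2 : log x ≤ A * hi := (log_le_iff_le_exp hx).2 h2
  have c1 := mul_le_mul_of_nonneg_left h3 hA
  have c2 := mul_le_mul_of_nonneg_left h4 hA
  rw [abs_le]
  constructor <;> nlinarith

theorem P_zero (r : (Fin 0 → ℝ) → ℝ) (L lam : ℝ) : P 0 r L lam := by
  refine ⟨{fun _ => lam}, fun _ _ => 0, 1, lam - 1, 0, one_pos, ⟨by linarith, le_rfl, ?_, ?_, ?_, ?_⟩,
    ?_⟩
  · intro v _
    exact ⟨fun i => i.elim0, fun i => i.elim0, continuous_const, fun _ => le_rfl⟩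
  · exact ⟨_, Finset.mem_singleton_self _, fun _ => rfl⟩
  · exact Finset.mem_singleton_self _
  · intro A _; simp
  · exact Eventually.of_forall fun A x _ _ _ v _ _ i => i.elim0

theorem R_base (k : ℕ) (r : (Fin (k + 1) → ℝ) → ℝ) (hr : ∀ v, 0 < r v) (L : ℝ) :
    ∃ ρ, 0 < ρ ∧ R k r L L ρ := by
  refine ⟨r fun _ => L, hr _, {fun _ => L}, fun _ _ => 0, L - 1, 0, fun _ => 0,
    ⟨by linarith, le_rfl, ?_, ?_, ?_, ?_⟩, ?_, ?_, ?_⟩
  · intro v hv
    rw [Finset.mem_singleton] at hv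
    subst hv
    exact ⟨antitone_const, fun i => ⟨le_rfl, le_rfl⟩, continuous_const, fun _ => le_rfl⟩
  · exact ⟨_, Finset.mem_singleton_self _, fun _ => rfl⟩
  · exact Finset.mem_singleton_self _
  · intro A _; simp
  · intro v _ _ A; exact le_rfl
  · exact ⟨_, Finset.mem_singleton_self _, rfl, fun _ => rfl⟩
  · filter_upwards [eventually_ge_atTop 0] with A hA x hx hlo v hv _ hup i
    rw [Finset.mem_singleton] at hv
    subst hv
    have := hr fun _ => L
    exact abs_log_le hA (hlo i) ((hx (Fin.zero_le i)).trans (hup rfl)) (by linarith) le_rfl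

theorem P_of_R {k : ℕ} {r : (Fin (k + 1) → ℝ) → ℝ} {L μ ρ : ℝ} (hρ : 0 < ρ) (h : R k r L μ ρ) :
    P (k + 1) r L μ := by
  obtain ⟨Λ, c, β, C, γ, hB, -, -, h3⟩ := h
  refine ⟨Λ, c, ρ, β, C, hρ, hB, ?_⟩
  filter_upwards [h3] with A hA x hx hlo hup v hv hmax
  exact hA x hx hlo v hv hmax fun _ => hup 0

theorem antitone_cons {k : ℕ} {a : ℝ} {w : Fin k → ℝ} (hw : Antitone w) (h : ∀ i, w i ≤ a) :
    Antitone (Fin.cons a w : Fin (k + 1) → ℝ) := by
  intro i j hij
  induction i using Fin.cases with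
  | zero =>
    induction j using Fin.cases with
    | zero => exact le_rfl
    | succ j => simpa using h j
  | succ i =>
    induction j using Fin.cases with
    | zero => exact absurd hij (by simp)
    | succ j => simpa using hw (Fin.succ_le_succ_iff.1 hij)

theorem R_step {k : ℕ} {r : (Fin (k + 1) → ℝ) → ℝ} (hr : ∀ v, 0 < r v) {L μ' : ℝ} (hL : L ≤ μ')
    (hP : P k (fun w => r (Fin.cons μ' w)) L μ') :
    ∃ e, e < μ' ∧ ∀ μ ρ, μ < μ' → R k r L μ ρ → e < μ + ρ → ∃ ρ', 0 < ρ' ∧ R k r L μ' ρ' := by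
  classical
  obtain ⟨Λ', c', ρ', β', C', hρ', ⟨hβ', hC', hv', ⟨b', hb', hb'c⟩, ht', ht'c⟩, h3'⟩ := hP
  obtain ⟨m, hm0, hm⟩ := exists_pos_le_finset Λ' (fun w => r (Fin.cons μ' w)) fun w _ => hr _
  refine ⟨max (μ' - m) β', max_lt (by linarith) hβ', fun μ ρ hμ hR he => ?_⟩
  obtain ⟨Λ, c, β, C, γ, ⟨hβ, hC, hv, ⟨b, hb, hbc⟩, ht, htc⟩, hγ, ⟨b₁, hb₁, hb₁0, hb₁c⟩, h3⟩ := hR
  obtain ⟨η, hη1, hη2⟩ : ∃ η, μ' - m < η ∧ η < min μ' (μ + ρ) :=
    exists_between (lt_min (by linarith) ((le_max_left _ _).trans_lt he))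
  have hη3 : η < μ' := hη2.trans_le (min_le_left _ _)
  have hη4 : η < μ + ρ := hη2.trans_le (min_le_right _ _)
  have hβ'2 : β' < μ + ρ := (le_max_right _ _).trans_lt he
  have hg : 0 < μ' - μ := sub_pos.2 hμ
  have hγ0 : ∀ A, 0 ≤ γ A := fun A => by rw [← hb₁c]; exact (hv b₁ hb₁).2.2.2 A
  have hγc : Continuous γ := by
    have : γ = c b₁ := funext fun A => (hb₁c A).symm
    rw [this]; exact (hv b₁ hb₁).2.2.1
  set γ' : ℝ → ℝ := fun A => γ A + (μ' - μ) * exp (A * η) with hγ'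
  set c'' : (Fin (k + 1) → ℝ) → ℝ → ℝ := fun v A =>
    if v 0 = μ' then γ' A + c' (Fin.tail v) A else c v A with hc''
  have hold : ∀ v ∈ Λ, c'' v = c v := by
    intro v hvΛ
    have : v 0 ≠ μ' := ((hv v hvΛ).2.1 0).2.trans_lt hμ |>.ne
    funext A; simp [hc'', this]
  have hnew : ∀ w : Fin k → ℝ, c'' (Fin.cons μ' w) = fun A => γ' A + c' w A := by
    intro w; funext A; simp [hc'']
  set Λ'' := Λ ∪ Λ'.image (fun w => (Fin.cons μ' w : Fin (k + 1) → ℝ)) with hΛ''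
  have hmem : ∀ v ∈ Λ'', v ∈ Λ ∨ ∃ w ∈ Λ', v = Fin.cons μ' w := by
    intro v hv''
    rcases Finset.mem_union.1 hv'' with h | h
    · exact Or.inl h
    · obtain ⟨w, hw, rfl⟩ := Finset.mem_image.1 h
      exact Or.inr ⟨w, hw, rfl⟩
  have hmem1 : ∀ v ∈ Λ, v ∈ Λ'' := fun v h => Finset.mem_union_left _ h
  have hmem2 : ∀ w ∈ Λ', (Fin.cons μ' w : Fin (k + 1) → ℝ) ∈ Λ'' := fun w h =>
    Finset.mem_union_right _ (Finset.mem_image_of_mem _ h)
  have hconst : (fun _ => μ' : Fin (k + 1) → ℝ) = Fin.cons μ' (fun _ => μ') := by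
    funext i; induction i using Fin.cases <;> simp
  have hγ'0 : ∀ A, 0 ≤ γ' A := fun A => by
    have := hγ0 A
    have := exp_pos (A * η)
    simp only [hγ']; positivity
  refine ⟨min ρ' m, lt_min hρ' hm0, Λ'', c'', max β (max η β'), C + (μ' - μ) + C', γ',
    ⟨max_lt (hβ.trans hμ) (max_lt hη3 hβ'), by positivity, ?_, ⟨b, hmem1 b hb, ?_⟩, ?_, ?_⟩,
    ?_, ⟨Fin.cons μ' b', hmem2 b' hb', by simp, ?_⟩, ?_⟩
  · intro v hv''
    rcases hmem v hv'' with h | ⟨w, hw, rfl⟩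
    · rw [hold v h]
      obtain ⟨h1, h2, h3, h4⟩ := hv v h
      exact ⟨h1, fun i => ⟨(h2 i).1, (h2 i).2.trans hμ.le⟩, h3, h4⟩
    · rw [hnew]
      obtain ⟨h1, h2, h3, h4⟩ := hv' w hw
      refine ⟨antitone_cons h1 fun i => (h2 i).2, fun i => ?_, ?_, fun A => ?_⟩
      · induction i using Fin.cases with
        | zero => simpa using hL
        | succ i => simpa using h2 i
      · simp only [hγ']; fun_prop
      · exact add_nonneg (hγ'0 A) (h4 A)
  · rw [hold b hb]; exact hbc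
  · rw [hconst]; exact hmem2 _ ht'
  · intro A hA
    rw [hconst, hnew]
    have h1 := (hγ _ ht rfl A).trans (htc A hA)
    have h2 := ht'c A hA
    have e1 : exp (A * β) ≤ exp (A * max β (max η β')) :=
      exp_le_exp.2 (mul_le_mul_of_nonneg_left (le_max_left _ _) hA)
    have e2 : exp (A * η) ≤ exp (A * max β (max η β')) :=
      exp_le_exp.2 (mul_le_mul_of_nonneg_left ((le_max_left _ _).trans (le_max_right _ _)) hA)
    have e3 : exp (A * β') ≤ exp (A * max β (max η β')) :=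
      exp_le_exp.2 (mul_le_mul_of_nonneg_left ((le_max_right _ _).trans (le_max_right _ _)) hA)
    have f1 := mul_le_mul_of_nonneg_left e1 hC
    have f2 := mul_le_mul_of_nonneg_left e2 hg.le
    have f3 := mul_le_mul_of_nonneg_left e3 hC'
    simp only [hγ']
    nlinarith
  · intro v hv'' hv0 A
    rcases hmem v hv'' with h | ⟨w, hw, rfl⟩
    · exact absurd hv0 (((hv v h).2.1 0).2.trans_lt hμ).ne
    · rw [hnew]
      have := (hv' w hw).2.2.2 A
      simp only; linarith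
  · intro A
    rw [hnew]; simp [hb'c]
  · filter_upwards [h3, h3', ev_exp hη4 (μ' - μ) (half_pos hg), ev_exp hβ'2 C' (half_pos hg),
      ev_exp hη1 (μ' - μ + k * (μ' - L)) hg, eventually_ge_atTop 0]
      with A hA hA' E1 E2 E3 hA0 x hx hlo v hv'' hmax hup
    have hxpos : ∀ i, 0 < x i := fun i => (exp_pos _).trans_le (hlo i)
    rcases hmem v hv'' with h | ⟨w, hw, rfl⟩
    · refine hA x hx hlo v h (fun w hw => ?_) (fun hv0 => ?_)
      · have := hmax w (hmem1 w hw)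
        rwa [hold w hw, hold v h] at this
      · have h1 := hmax _ (hmem2 _ ht')
        rw [hnew, hold v h, Fin.sum_univ_succ, Fin.sum_univ_succ, hv0] at h1
        simp only [Fin.cons_zero, Fin.cons_succ, hγ'] at h1
        have h2 : ∑ i : Fin k, v i.succ * x i.succ ≤ ∑ i : Fin k, μ' * x i.succ :=
          Finset.sum_le_sum fun i _ => mul_le_mul_of_nonneg_right
            (((hv v h).2.1 _).2.trans hμ.le) (hxpos _).le
        have h4 := hγ v h hv0 A
        have h5 := ht'c A hA0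
        have h6 : (μ' - μ) * x 0 ≤ (μ' - μ) * exp (A * (μ + ρ)) := by nlinarith
        exact le_of_mul_le_mul_left h6 hg
    · have hup' := hup (by simp)
      have htail : ∀ i : Fin k, |log (x i.succ) - A * w i| ≤ A * r (Fin.cons μ' w) := by
        refine hA' (fun i => x i.succ) (fun i j hij => hx (Fin.succ_le_succ_iff.2 hij))
          (fun i => hlo _) (fun i => ?_) w hw (fun w' hw' => ?_)
        · refine (hx (Fin.zero_le _)).trans (hup'.trans (exp_le_exp.2 ?_))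
          exact mul_le_mul_of_nonneg_left (by linarith [min_le_left ρ' m]) hA0
        · have h1 := hmax _ (hmem2 _ hw')
          rw [hnew, hnew, Fin.sum_univ_succ, Fin.sum_univ_succ] at h1
          simp only [Fin.cons_zero, Fin.cons_succ] at h1
          linarith
      intro i
      induction i using Fin.cases with
      | succ i => simpa using htail i
      | zero =>
        have h1 := hmax _ (hmem1 _ hb₁)
        rw [hnew, hold b₁ hb₁, Fin.sum_univ_succ, Fin.sum_univ_succ, hb₁0, hb₁c] at h1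
        simp only [Fin.cons_zero, Fin.cons_succ, hγ'] at h1
        have h2 : ∑ i : Fin k, w i * x i.succ - ∑ i : Fin k, b₁ i.succ * x i.succ ≤
            k * (μ' - L) * x 0 := by
          rw [← Finset.sum_sub_distrib]
          have : (k : ℝ) * (μ' - L) * x 0 = ∑ _i : Fin k, (μ' - L) * x 0 := by
            simp [mul_assoc]
          rw [this]
          refine Finset.sum_le_sum fun i _ => ?_
          rw [← sub_mul]
          have a1 := ((hv' w hw).2.1 i).2
          have a2 := ((hv b₁ hb₁).2.1 i.succ).1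
          have a3 := hx (Fin.zero_le i.succ)
          have a4 := hxpos i.succ
          calc _ ≤ (μ' - L) * x i.succ := by gcongr
            _ ≤ _ := by gcongr
        have h4 := (hv' w hw).2.2.2 A
        have hD : 0 < μ' - μ + k * (μ' - L) := by
          have : 0 ≤ μ' - L := by linarith
          positivity
        have h6 : (μ' - μ + k * (μ' - L)) * exp (A * (μ' - m)) ≤
            (μ' - μ + k * (μ' - L)) * x 0 := by nlinarith
        have h7 := le_of_mul_le_mul_left h6 hD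
        have h8 := hm w hw
        simp only [Fin.cons_zero]
        exact abs_log_le hA0 h7 hup' (by linarith) (by linarith [min_le_right ρ' m])

theorem P_all (k : ℕ) : ∀ (r : (Fin k → ℝ) → ℝ), (∀ v, 0 < r v) → ∀ L lam : ℝ, L ≤ lam →
    P k r L lam := by
  induction k with
  | zero => intro r _ L lam _; exact P_zero r L lam
  | succ k ih =>
    intro r hr L lam hlam
    suffices h : ∀ μ, L ≤ μ → ∃ ρ, 0 < ρ ∧ R k r L μ ρ by
      obtain ⟨ρ, hρ, hR⟩ := h lam hlam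
      exact P_of_R hρ hR
    have hstep : ∀ μ', L ≤ μ' → ∃ e, e < μ' ∧ ∀ μ ρ, μ < μ' → R k r L μ ρ → e < μ + ρ →
        ∃ ρ', 0 < ρ' ∧ R k r L μ' ρ' := fun μ' hμ' =>
      R_step hr hμ' (ih _ (fun w => hr _) L μ' hμ')
    by_contra hcon
    push Not at hcon
    set T := {μ | L ≤ μ ∧ ∀ ρ, 0 < ρ → ¬ R k r L μ ρ} with hT
    have hTne : T.Nonempty := hcon
    have hTb : BddBelow T := ⟨L, fun μ hμ => hμ.1⟩
    set s := sInf T with hs
    have hLs : L ≤ s := le_csInf hTne fun μ hμ => hμ.1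
    have hgood : ∃ ρ, 0 < ρ ∧ R k r L s ρ := by
      rcases hLs.eq_or_lt with h | h
      · rw [← h]; exact R_base k r hr L
      · obtain ⟨e, he, hes⟩ := hstep s hLs
        obtain ⟨μ, hμ1, hμ2⟩ := exists_between (max_lt h he)
        have hLμ : L ≤ μ := ((le_max_left _ _).trans_lt hμ1).le
        have : μ ∉ T := fun hμT => absurd (csInf_le hTb hμT) (not_le.2 hμ2)
        simp only [hT, Set.mem_ofPred_eq, not_and, not_forall, not_not] at this
        obtain ⟨ρ, hρ, hR⟩ := this hLμ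
        exact hes μ ρ hμ2 hR (by linarith [(le_max_right L e).trans_lt hμ1])
    obtain ⟨ρ, hρ, hR⟩ := hgood
    obtain ⟨μ', hμ'T, hμ'⟩ := exists_lt_of_csInf_lt hTne (show sInf T < s + ρ by linarith)
    have h1 : s ≤ μ' := csInf_le hTb hμ'T
    rcases h1.eq_or_lt with h | h
    · exact hμ'T.2 ρ hρ (h ▸ hR)
    · obtain ⟨e, he, hes⟩ := hstep μ' hμ'T.1
      obtain ⟨ρ', hρ', hR'⟩ := hes s ρ h hR (by linarith)
      exact hμ'T.2 ρ' hρ' hR'

/-- symmetrised version: no ordering assumption on the point -/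
theorem P_sym (k : ℕ) (r : (Fin k → ℝ) → ℝ) (hr : ∀ v, 0 < r v) (L lam : ℝ) (h : L ≤ lam) :
    ∃ (Λ : Finset (Fin k → ℝ)) (c : (Fin k → ℝ) → ℝ → ℝ) (ρ β C : ℝ), 0 < ρ ∧
    Basic L lam Λ c β C ∧
    ∀ᶠ A in atTop, ∀ x : Fin k → ℝ, (∀ i, exp (A * L) ≤ x i) →
      (∀ i, x i ≤ exp (A * (lam + ρ))) → ∀ v ∈ Λ,
        (∀ w ∈ Λ, ∀ q : Equiv.Perm (Fin k),
          ∑ i, w i * x (q i) - c w A ≤ ∑ i, v i * x i - c v A) →
        ∀ i, |log (x i) - A * v i| ≤ A * r v := by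
  obtain ⟨Λ, c, ρ, β, C, hρ, hB, h3⟩ := P_all k r hr L lam h
  refine ⟨Λ, c, ρ, β, C, hρ, hB, ?_⟩
  filter_upwards [h3] with A hA x hlo hup v hv hmax
  have hvanti : Antitone v := (hB.2.2.1 v hv).1
  have hmono : ∀ i j, v j < v i → x j ≤ x i := by
    intro i j hij
    have hne : i ≠ j := fun h => by rw [h] at hij; exact lt_irrefl _ hij
    have h1 := hmax v hv (Equiv.swap i j)
    have h2 : ∑ l, v l * x l - ∑ l, v l * x (Equiv.swap i j l) = (v i - v j) * (x i - x j) := by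
      rw [← Finset.sum_sub_distrib, Finset.sum_eq_add_of_mem i j (Finset.mem_univ _)
        (Finset.mem_univ _) hne]
      · simp; ring
      · intro l _ hl
        rw [Equiv.swap_apply_of_ne_of_ne hl.1 hl.2, sub_self]
    have h4 : 0 ≤ (v i - v j) * (x i - x j) := by linarith
    have h5 := nonneg_of_mul_nonneg_right h4 (sub_pos.2 hij)
    linarith
  let f : Fin k → (ℝ ×ₗ ℝ)ᵒᵈ := fun i => OrderDual.toDual (toLex (v i, x i))
  let τ := Tuple.sort f
  have hτ : Monotone (f ∘ τ) := Tuple.monotone_sort f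
  have hlex : ∀ i j, i ≤ j → v (τ j) < v (τ i) ∨ (v (τ j) = v (τ i) ∧ x (τ j) ≤ x (τ i)) := by
    intro i j hij
    have := hτ hij
    simp only [Function.comp_apply, f, OrderDual.toDual_le_toDual, Prod.Lex.toLex_le_toLex] at this
    exact this
  have h1 : Antitone (v ∘ τ) := fun i j hij => by
    rcases hlex i j hij with h | h
    · exact h.le
    · exact h.1.le
  have h2 : Antitone (x ∘ τ) := fun i j hij => by
    rcases hlex i j hij with h | h
    · exact hmono _ _ h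
    · exact h.2
  have h4 : v ∘ τ = v := by
    have := Tuple.unique_antitone (f := v) (σ := τ) (τ := 1) h1 (by simpa using hvanti)
    simpa using this
  have h5 : ∑ i, v i * x (τ i) = ∑ i, v i * x i := by
    rw [← Equiv.sum_comp τ (fun i => v i * x i)]
    refine Finset.sum_congr rfl fun i _ => ?_
    rw [show v (τ i) = v i from congrFun h4 i]
  have h6 := hA (x ∘ τ) h2 (fun i => hlo _) (fun i => hup _) v hv (fun w hw => by
    have := hmax w hw τ
    simp only [Function.comp_apply]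
    rw [h5]; exact this)
  intro i
  have h7 := h6 (τ.symm i)
  have h8 : v (τ.symm i) = v i := by
    have := congrFun h4 (τ.symm i)
    simpa using this.symm
  simpa [h8] using h7

end Crest.Agent.H3Perm
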